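import Mathlib

namespace Vale.Agent.Results.P196.WobblingNoGo

open Function

/-- `σ` moves every integer by at most a fixed amount: `σ` lies in the wobbling group `W(ℤ)`. -/
def BoundedDisp (σ : Equiv.Perm ℤ) : Prop := ∃ C : ℤ, ∀ m : ℤ, |σ m - m| ≤ C

lemma perm_apply_inv {α : Type*} (s : Equiv.Perm α) (m : α) : s (s⁻¹ m) = m := by simp

lemma perm_inv_apply {α : Type*} (s : Equiv.Perm α) (m : α) : s⁻¹ (s m) = m := by simp

/-- the group element attached to a letter -/
def act {n : ℕ} {H : Type*} [Group H] (σ : Fin n → H) (p : Fin n × Bool) : H :=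
  cond p.2 (σ p.1) (σ p.1)⁻¹

lemma lift_mk_eq {n : ℕ} {H : Type*} [Group H] (σ : Fin n → H) (L : List (Fin n × Bool)) :
    FreeGroup.lift σ (FreeGroup.mk L) = (L.map (act σ)).prod := by
  rw [FreeGroup.lift_mk]
  rfl

lemma act_disp {n : ℕ} {σ : Fin n → Equiv.Perm ℤ} {C : ℤ} (hC : ∀ i m, |σ i m - m| ≤ C)
    (p : Fin n × Bool) (m : ℤ) : |act σ p m - m| ≤ C := by
  obtain ⟨i, b⟩ := p
  cases b
  · have := hC i ((σ i)⁻¹ m)
    rw [perm_apply_inv, abs_sub_comm] at this
    exact this
  · exact hC i m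

lemma word_disp {n : ℕ} {σ : Fin n → Equiv.Perm ℤ} {C : ℤ} (hC : ∀ i m, |σ i m - m| ≤ C)
    (L : List (Fin n × Bool)) (m : ℤ) : |(L.map (act σ)).prod m - m| ≤ C * L.length := by
  induction L with
  | nil => simp
  | cons p L ih =>
    simp only [List.map_cons, List.prod_cons, Equiv.Perm.mul_apply, List.length_cons]
    have h1 := act_disp hC p ((L.map (act σ)).prod m)
    have h2 := abs_sub_le (act σ p ((L.map (act σ)).prod m)) ((L.map (act σ)).prod m) m
    push_cast
    linarith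

/-- the representative of a residue class in `[t, t + N)` -/
def rep {N : ℕ} (t : ℤ) (x : ZMod N) : ℤ := t + ((x - (t : ZMod N)).val : ℤ)

lemma rep_cast {N : ℕ} [NeZero N] (t : ℤ) (x : ZMod N) : ((rep t x : ℤ) : ZMod N) = x := by
  unfold rep
  push_cast
  rw [ZMod.natCast_zmod_val]
  ring

lemma rep_mem {N : ℕ} [NeZero N] (t : ℤ) (x : ZMod N) : t ≤ rep t x ∧ rep t x < t + N := by
  unfold rep
  have := ZMod.val_lt (x - (t : ZMod N))
  constructor
  · have : (0 : ℤ) ≤ ((x - (t : ZMod N)).val : ℤ) := Int.natCast_nonneg _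
    linarith
  · have : ((x - (t : ZMod N)).val : ℤ) < N := by exact_mod_cast this
    linarith

section closing

variable {n : ℕ} {σ : Fin n → Equiv.Perm ℤ} {C R t : ℤ} {N : ℕ} [NeZero N]

/-- the map induced by a letter on `ℤ / N`, read off on the fundamental domain `[t, t + N)` -/
def tauFun (σ : Fin n → Equiv.Perm ℤ) (t : ℤ) (N : ℕ) (p : Fin n × Bool) (x : ZMod N) : ZMod N :=
  ((act σ p (rep t x) : ℤ) : ZMod N)

/-- if the displacement patterns around `t` and `t + N` agree up to distance `R < N`, the induced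
maps are compatible with the true action on the whole interval `[t - R, t + N + R]` -/
lemma star (hRN : R < N)
    (hwin : ∀ p : Fin n × Bool, ∀ j : ℤ, |j| ≤ R → act σ p (t + N + j) = act σ p (t + j) + N)
    (p : Fin n × Bool) (m : ℤ) (h1 : t - R ≤ m) (h2 : m ≤ t + N + R) :
    tauFun σ t N p (m : ZMod N) = ((act σ p m : ℤ) : ZMod N) := by
  unfold tauFun
  obtain ⟨r, hr⟩ : ∃ r, r = rep t (m : ZMod N) := ⟨_, rfl⟩
  rw [← hr]
  have hcast : ((r : ℤ) : ZMod N) = (m : ZMod N) := by rw [hr, rep_cast]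
  have hmem := rep_mem t (m : ZMod N)
  rw [← hr] at hmem
  obtain ⟨k, hk⟩ := (ZMod.intCast_eq_intCast_iff_dvd_sub r m N).mp hcast
  have hN : (0 : ℤ) < N := by
    have := NeZero.pos N
    exact_mod_cast this
  have hk1 : k < 2 := by nlinarith [hmem.1, hmem.2]
  have hk2 : -2 < k := by nlinarith [hmem.1, hmem.2]
  have hk3 : k = -1 ∨ k = 0 ∨ k = 1 := by omega
  rcases hk3 with rfl | rfl | rfl
  · -- `m = r - N`
    have hm : r = t + N + (m - t) := by linarith
    have hj : |m - t| ≤ R := by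
      rw [abs_le]
      constructor <;> linarith [hmem.2]
    have := hwin p (m - t) hj
    rw [← hm] at this
    rw [this]
    have e : t + (m - t) = m := by ring
    rw [e]
    push_cast
    simp
  · have : m = r := by linarith
    rw [this]
  · have hm : m = t + N + (r - t) := by linarith
    have hj : |r - t| ≤ R := by
      rw [abs_le]
      constructor <;> linarith [hmem.1]
    have := hwin p (r - t) hj
    rw [← hm] at this
    rw [this]
    have e : t + (r - t) = r := by ring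
    rw [e]
    push_cast
    simp

lemma tauFun_cancel (hC : ∀ i m, |σ i m - m| ≤ C) (hCR : C ≤ R) (hRN : R < N)
    (hwin : ∀ p : Fin n × Bool, ∀ j : ℤ, |j| ≤ R → act σ p (t + N + j) = act σ p (t + j) + N)
    (p p' : Fin n × Bool) (hpp : ∀ m, act σ p' (act σ p m) = m) (x : ZMod N) :
    tauFun σ t N p' (tauFun σ t N p x) = x := by
  have hmem := rep_mem t x
  have hd := abs_le.mp (act_disp hC p (rep t x))
  have : tauFun σ t N p x = ((act σ p (rep t x) : ℤ) : ZMod N) := rfl
  rw [this, star hRN hwin p' _ (by linarith [hd.1, hmem.1]) (by linarith [hd.2, hmem.2]), hpp,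
    rep_cast]

/-- **Closing lemma.** If the displacement patterns of the generators around `t` and `t + N` agree
up to distance `R < N`, then the segment `[t, t + N)` can be closed up to a cycle: there are
permutations of `ℤ / N` that mimic the action of all words of length at most `R / C`. -/
lemma closing (hC0 : 0 ≤ C) (hC : ∀ i m, |σ i m - m| ≤ C) (hCR : C ≤ R) (hRN : R < N)
    (hwin : ∀ p : Fin n × Bool, ∀ j : ℤ, |j| ≤ R → act σ p (t + N + j) = act σ p (t + j) + N) :
    ∃ τ : Fin n → Equiv.Perm (ZMod N), ∀ L : List (Fin n × Bool), C * L.length ≤ R →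
      ∀ m : ℤ, t ≤ m → m < t + N →
        (FreeGroup.lift τ (FreeGroup.mk L)) (m : ZMod N) =
          ((FreeGroup.lift σ (FreeGroup.mk L) m : ℤ) : ZMod N) := by
  let τ : Fin n → Equiv.Perm (ZMod N) := fun i =>
    { toFun := tauFun σ t N (i, true)
      invFun := tauFun σ t N (i, false)
      left_inv := tauFun_cancel hC hCR hRN hwin (i, true) (i, false)
        (fun m => perm_inv_apply (σ i) m)
      right_inv := tauFun_cancel hC hCR hRN hwin (i, false) (i, true)
        (fun m => perm_apply_inv (σ i) m) }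
  have hτ : ∀ (p : Fin n × Bool) (x : ZMod N), act τ p x = tauFun σ t N p x := by
    rintro ⟨i, b⟩ x
    cases b <;> rfl
  have key : ∀ L : List (Fin n × Bool), ∀ m : ℤ, t - R + C * L.length ≤ m →
      m ≤ t + N + R - C * L.length →
      ((L.map (act τ)).prod) (m : ZMod N) = (((L.map (act σ)).prod m : ℤ) : ZMod N) := by
    intro L
    induction L with
    | nil => intro m _ _; simp
    | cons p L ih =>
      intro m h1 h2
      simp only [List.length_cons] at h1 h2
      push_cast at h1 h2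
      simp only [List.map_cons, List.prod_cons, Equiv.Perm.mul_apply]
      rw [ih m (by nlinarith) (by nlinarith), hτ]
      have hd := abs_le.mp (word_disp hC L m)
      exact star hRN hwin p _ (by nlinarith [hd.1]) (by nlinarith [hd.2])
  refine ⟨τ, fun L hL m h1 h2 => ?_⟩
  rw [lift_mk_eq, lift_mk_eq]
  exact key L m (by linarith) (by linarith)

end closing

/-- An element that dies in every finite quotient fixes every point between two places with the
same displacement pattern. -/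
lemma fixed_between {G : Type*} [Group G] {n : ℕ} (f : FreeGroup (Fin n) →* G)
    (hf : Surjective f) (Rel : Set (FreeGroup (Fin n))) (hRel : Subgroup.normalClosure Rel = f.ker)
    (ρ : G →* Equiv.Perm ℤ) {C R : ℤ} (hC0 : 0 ≤ C)
    (hC : ∀ i m, |ρ (f (FreeGroup.of i)) m - m| ≤ C) (hCR : C ≤ R)
    (hRelR : ∀ r ∈ Rel, C * (FreeGroup.toWord r).length ≤ R)
    (w₀ : FreeGroup (Fin n)) (hw₀ : C * (FreeGroup.toWord w₀).length ≤ R)
    (hres : ∀ (Q : Type) [Group Q] [Finite Q] (ψ : G →* Q), ψ (f w₀) = 1)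
    (t : ℤ) (N : ℕ) (hRN : R < N)
    (hwin : ∀ p : Fin n × Bool, ∀ j : ℤ, |j| ≤ R →
      act (fun i => ρ (f (FreeGroup.of i))) p (t + N + j) =
        act (fun i => ρ (f (FreeGroup.of i))) p (t + j) + N)
    (m : ℤ) (h1 : t ≤ m) (h2 : m < t + N) : ρ (f w₀) m = m := by
  have hNpos : 0 < N := by
    have : (0 : ℤ) < N := by linarith
    exact_mod_cast this
  have : NeZero N := ⟨hNpos.ne'⟩
  set σ : Fin n → Equiv.Perm ℤ := fun i => ρ (f (FreeGroup.of i)) with hσ
  have hlift : ∀ w, FreeGroup.lift σ w = ρ (f w) := by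
    intro w
    have : FreeGroup.lift σ = ρ.comp f := by
      ext i
      simp [hσ]
    rw [this]
    rfl
  obtain ⟨τ, hτ⟩ := closing (σ := σ) (t := t) (N := N) hC0 hC hCR hRN hwin
  have hker : f.ker ≤ (FreeGroup.lift τ).ker := by
    rw [← hRel]
    apply Subgroup.normalClosure_le_normal
    intro r hr
    rw [SetLike.mem_coe, MonoidHom.mem_ker]
    ext x
    have hmem := rep_mem t x
    have := hτ (FreeGroup.toWord r) (hRelR r hr) (rep t x) hmem.1 hmem.2
    rw [FreeGroup.mk_toWord, rep_cast, hlift] at this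
    have hr1 : f r = 1 := by
      have : r ∈ f.ker := by
        rw [← hRel]
        exact Subgroup.subset_normalClosure hr
      exact this
    rw [hr1, map_one, Equiv.Perm.one_apply, rep_cast] at this
    rw [this, Equiv.Perm.one_apply]
  have hψ := hres (Equiv.Perm (ZMod N)) (f.liftOfSurjective hf ⟨FreeGroup.lift τ, hker⟩)
  rw [MonoidHom.liftOfRightInverse_comp_apply] at hψ
  have h3 := hτ (FreeGroup.toWord w₀) hw₀ m h1 h2
  rw [FreeGroup.mk_toWord, hlift] at h3
  simp only at hψ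
  rw [hψ, Equiv.Perm.one_apply] at h3
  have hdvd : (N : ℤ) ∣ ρ (f w₀) m - m := (ZMod.intCast_eq_intCast_iff_dvd_sub _ _ N).mp h3
  have hdisp : |ρ (f w₀) m - m| ≤ C * (FreeGroup.toWord w₀).length := by
    have := word_disp hC (FreeGroup.toWord w₀) m
    rw [← lift_mk_eq, FreeGroup.mk_toWord, hlift] at this
    exact this
  have := Int.eq_zero_of_abs_lt_dvd hdvd (by linarith)
  linarith

lemma pigeon {α : Type*} [Finite α] (Wd : ℤ → α) (c : ℤ) :
    ∃ k₀ : ℕ, ∀ B : ℕ, ∃ k₁ : ℕ, B < k₁ ∧ k₀ < k₁ ∧ Wd (k₁ * c) = Wd (k₀ * c) := by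
  obtain ⟨y, hy⟩ := Finite.exists_infinite_fiber (fun k : ℕ => Wd (k * c))
  have hinf : ((fun k : ℕ => Wd (k * c)) ⁻¹' {y}).Infinite := Set.infinite_coe_iff.mp hy
  obtain ⟨k₀, hk₀⟩ := hinf.nonempty
  refine ⟨k₀, fun B => ?_⟩
  obtain ⟨k₁, hk₁, hgt⟩ := hinf.exists_gt (max B k₀)
  refine ⟨k₁, lt_of_le_of_lt (le_max_left _ _) hgt, lt_of_le_of_lt (le_max_right _ _) hgt, ?_⟩
  have e1 : Wd (k₁ * c) = y := hk₁
  have e0 : Wd (k₀ * c) = y := hk₀
  rw [e1, e0]

lemma act_fixed {n : ℕ} {σ : Fin n → Equiv.Perm ℤ} {m : ℤ} (h : ∀ i, σ i m = m)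
    (p : Fin n × Bool) : act σ p m = m := by
  obtain ⟨i, b⟩ := p
  cases b
  · exact Equiv.Perm.inv_eq_iff_eq.mpr (h i).symm
  · exact h i

lemma core {G : Type*} [Group G] {n : ℕ} (f : FreeGroup (Fin n) →* G)
    (hf : Surjective f) (Rel : Set (FreeGroup (Fin n))) (hfin : Rel.Finite)
    (hRel : Subgroup.normalClosure Rel = f.ker)
    (ρ : G →* Equiv.Perm ℤ) {C : ℤ} (hC0 : 0 ≤ C)
    (hC : ∀ i m, |ρ (f (FreeGroup.of i)) m - m| ≤ C)
    (w₀ : FreeGroup (Fin n))
    (hres : ∀ (Q : Type) [Group Q] [Finite Q] (ψ : G →* Q), ψ (f w₀) = 1) :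
    {m | ρ (f w₀) m ≠ m}.Finite ∧
      ((∀ i, {m | ρ (f (FreeGroup.of i)) m ≠ m}.Finite) → ρ (f w₀) = 1) := by
  classical
  set σ : Fin n → Equiv.Perm ℤ := fun i => ρ (f (FreeGroup.of i)) with hσ
  -- a bound for the lengths of the relevant words
  obtain ⟨b, hb⟩ := (hfin.image (fun r => (FreeGroup.toWord r).length)).bddAbove
  obtain ⟨Lmax, hL1, hL2, hL3⟩ : ∃ Lmax : ℕ, (∀ r ∈ Rel, (FreeGroup.toWord r).length ≤ Lmax) ∧
      (FreeGroup.toWord w₀).length ≤ Lmax ∧ 1 ≤ Lmax := by
    refine ⟨max b (max (FreeGroup.toWord w₀).length 1), fun r hr => ?_, ?_, ?_⟩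
    · exact le_trans (hb ⟨r, hr, rfl⟩) (le_max_left _ _)
    · exact le_trans (le_max_left _ _) (le_max_right _ _)
    · exact le_trans (le_max_right _ _) (le_max_right _ _)
  obtain ⟨R, hR⟩ : ∃ R : ℕ, (R : ℤ) = C * Lmax := ⟨C.toNat * Lmax, by
    push_cast
    rw [Int.toNat_of_nonneg hC0]⟩
  have hCR : C ≤ (R : ℤ) := by
    rw [hR]
    have : (1 : ℤ) ≤ Lmax := by exact_mod_cast hL3
    nlinarith
  have hRelR : ∀ r ∈ Rel, C * (FreeGroup.toWord r).length ≤ (R : ℤ) := by
    intro r hr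
    rw [hR]
    have : ((FreeGroup.toWord r).length : ℤ) ≤ Lmax := by exact_mod_cast hL1 r hr
    nlinarith
  have hw₀ : C * (FreeGroup.toWord w₀).length ≤ (R : ℤ) := by
    rw [hR]
    have : ((FreeGroup.toWord w₀).length : ℤ) ≤ Lmax := by exact_mod_cast hL2
    nlinarith
  have FB := fixed_between f hf Rel hRel ρ hC0 hC hCR hRelR w₀ hw₀ hres
  constructor
  · -- the displacement pattern around `t`
    let Wd : ℤ → (Fin n × Bool → Set.Icc (-(R : ℤ)) R → Set.Icc (-C) C) := fun t p j =>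
      ⟨act σ p (t + j) - (t + j), abs_le.mp (act_disp hC p _)⟩
    have key : ∀ (t : ℤ) (N : ℕ), (R : ℤ) < N → Wd (t + N) = Wd t →
        ∀ m, t ≤ m → m < t + N → ρ (f w₀) m = m := by
      intro t N hRN hW
      refine FB t N hRN ?_
      intro p j hj
      have := congrFun (congrFun hW p) ⟨j, abs_le.mp hj⟩
      have h2 : act σ p (t + N + j) - (t + N + j) = act σ p (t + j) - (t + j) :=
        congrArg Subtype.val this
      linarith
    obtain ⟨k₀, hk₀⟩ := pigeon Wd ((R : ℤ) + 1)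
    obtain ⟨l₀, hl₀⟩ := pigeon (fun s => Wd (-s)) ((R : ℤ) + 1)
    have hRnn : (0 : ℤ) ≤ R := Int.natCast_nonneg R
    apply (Set.finite_Ico (-((l₀ : ℤ) * ((R : ℤ) + 1))) ((k₀ : ℤ) * ((R : ℤ) + 1))).subset
    intro m hm
    by_contra hcon
    apply hm
    rw [Set.mem_Ico, not_and_or, not_le, not_lt] at hcon
    rcases hcon with hlt | hge
    · obtain ⟨l₁, hB, hl, hW⟩ := hl₀ (-m).toNat
      have hB' : -m < (l₁ : ℤ) := by
        have : (-m).toNat < l₁ := hB
        omega
      have hl' : (l₀ : ℤ) + 1 ≤ l₁ := by exact_mod_cast hl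
      have hN : (((l₁ - l₀) * (R + 1) : ℕ) : ℤ) = ((l₁ : ℤ) - l₀) * ((R : ℤ) + 1) := by
        rw [Nat.cast_mul, Nat.cast_sub hl.le]
        push_cast
        ring
      refine key (-((l₁ : ℤ) * ((R : ℤ) + 1))) ((l₁ - l₀) * (R + 1)) ?_ ?_ m ?_ ?_
      · rw [hN]
        nlinarith
      · rw [hN]
        have e : -((l₁ : ℤ) * ((R : ℤ) + 1)) + ((l₁ : ℤ) - l₀) * ((R : ℤ) + 1) =
            -((l₀ : ℤ) * ((R : ℤ) + 1)) := by ring
        rw [e]
        exact hW.symm
      · nlinarith
      · rw [hN]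
        linarith
    · obtain ⟨k₁, hB, hk, hW⟩ := hk₀ m.toNat
      have hB' : m < (k₁ : ℤ) := by
        have : m.toNat < k₁ := hB
        omega
      have hk' : (k₀ : ℤ) + 1 ≤ k₁ := by exact_mod_cast hk
      have hN : (((k₁ - k₀) * (R + 1) : ℕ) : ℤ) = ((k₁ : ℤ) - k₀) * ((R : ℤ) + 1) := by
        rw [Nat.cast_mul, Nat.cast_sub hk.le]
        push_cast
        ring
      refine key ((k₀ : ℤ) * ((R : ℤ) + 1)) ((k₁ - k₀) * (R + 1)) ?_ ?_ m hge ?_
      · rw [hN]
        nlinarith
      · rw [hN]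
        have e : (k₀ : ℤ) * ((R : ℤ) + 1) + ((k₁ : ℤ) - k₀) * ((R : ℤ) + 1) =
            (k₁ : ℤ) * ((R : ℤ) + 1) := by ring
        rw [e]
        exact hW
      · rw [hN]
        have : (0 : ℤ) ≤ k₁ := Int.natCast_nonneg k₁
        nlinarith
  · intro hgen
    have hU : (⋃ i, {m | σ i m ≠ m}).Finite := Set.finite_iUnion hgen
    obtain ⟨M, hM⟩ := (hU.image (fun m : ℤ => m.natAbs)).bddAbove
    have hfix : ∀ m : ℤ, (M : ℤ) < |m| → ∀ i, σ i m = m := by
      intro m hm i
      by_contra hne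
      have : m.natAbs ≤ M := hM ⟨m, Set.mem_iUnion.mpr ⟨i, hne⟩, rfl⟩
      have h2 : |m| ≤ (M : ℤ) := by
        rw [Int.abs_eq_natAbs]
        exact_mod_cast this
      linarith
    ext m
    rw [Equiv.Perm.one_apply]
    have hRnn : (0 : ℤ) ≤ R := Int.natCast_nonneg R
    have hMnn : (0 : ℤ) ≤ M := Int.natCast_nonneg M
    have hmn : |m| = (m.natAbs : ℤ) := Int.abs_eq_natAbs m
    have hm2 := abs_le.mp (le_of_eq hmn)
    have hN : ((2 * (M + m.natAbs + R + 1) : ℕ) : ℤ) = 2 * ((M : ℤ) + m.natAbs + R + 1) := by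
      push_cast
      ring
    refine FB (-((M : ℤ) + m.natAbs + R + 1)) (2 * (M + m.natAbs + R + 1)) ?_ ?_ m ?_ ?_
    · rw [hN]
      have : (0 : ℤ) ≤ m.natAbs := Int.natCast_nonneg _
      linarith
    · intro p j hj
      have hj' := abs_le.mp hj
      have hnn : (0 : ℤ) ≤ m.natAbs := Int.natCast_nonneg _
      rw [hN]
      rw [act_fixed (hfix _ ?_) p, act_fixed (hfix _ ?_) p]
      · ring
      · rw [lt_abs]
        right
        linarith [hj'.2]
      · rw [lt_abs]
        left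
        linarith [hj'.1]
    · linarith [hm2.1]
    · rw [hN]
      linarith [hm2.2]


/-- `g` dies in every finite quotient of `G`: it lies in the finite residual of `G`. -/
def InFiniteResidual {G : Type*} [Group G] (g : G) : Prop :=
  ∀ (Q : Type) [Group Q] [Finite Q] (ψ : G →* Q), ψ g = 1

lemma exists_data {G : Type*} [Group G] [hfp : Group.IsFinitelyPresented G]
    (ρ : G →* Equiv.Perm ℤ) (hρ : ∀ g, BoundedDisp (ρ g)) :
    ∃ (n : ℕ) (f : FreeGroup (Fin n) →* G) (Rel : Set (FreeGroup (Fin n))) (C : ℤ),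
      Surjective f ∧ Rel.Finite ∧ Subgroup.normalClosure Rel = f.ker ∧ 0 ≤ C ∧
      ∀ i m, |ρ (f (FreeGroup.of i)) m - m| ≤ C := by
  obtain ⟨n, f, hf, Rel, hfin, hRel⟩ := hfp.out
  choose c hc using fun i : Fin n => hρ (f (FreeGroup.of i))
  refine ⟨n, f, Rel, ∑ i, |c i|, hf, hfin, hRel, Finset.sum_nonneg (fun i _ => abs_nonneg _), ?_⟩
  intro i m
  calc |ρ (f (FreeGroup.of i)) m - m| ≤ c i := hc i m
    _ ≤ |c i| := le_abs_self _
    _ ≤ ∑ i, |c i| := Finset.single_le_sum (f := fun i => |c i|) (fun i _ => abs_nonneg _)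
        (Finset.mem_univ i)

/-- **Theorem W'.** -/
theorem finitary_of_residual {G : Type*} [Group G] [Group.IsFinitelyPresented G]
    (ρ : G →* Equiv.Perm ℤ) (hρ : ∀ g, BoundedDisp (ρ g)) (g : G) (hg : InFiniteResidual g) :
    {m | ρ g m ≠ m}.Finite := by
  obtain ⟨n, f, Rel, C, hf, hfin, hRel, hC0, hC⟩ := exists_data ρ hρ
  obtain ⟨w, rfl⟩ := hf g
  exact (core f hf Rel hfin hRel ρ hC0 hC w hg).1

/-- **Theorem W.** -/
theorem trivial_of_no_finite_quotient {G : Type*} [Group G] [Group.IsFinitelyPresented G]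
    (hG : ∀ g : G, InFiniteResidual g)
    (ρ : G →* Equiv.Perm ℤ) (hρ : ∀ g, BoundedDisp (ρ g)) (g : G) : ρ g = 1 := by
  obtain ⟨n, f, Rel, C, hf, hfin, hRel, hC0, hC⟩ := exists_data ρ hρ
  obtain ⟨w, rfl⟩ := hf g
  exact (core f hf Rel hfin hRel ρ hC0 hC w (hG _)).2
    (fun i => (core f hf Rel hfin hRel ρ hC0 hC (FreeGroup.of i) (hG _)).1)

lemma residual_of_simple {G : Type*} [Group G] [IsSimpleGroup G] [Infinite G] (g : G) :
    InFiniteResidual g := by
  intro Q _ _ ψ
  rcases ψ.normal_ker.eq_bot_or_eq_top with h | h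
  · exact absurd (Finite.of_injective ψ ((MonoidHom.ker_eq_bot_iff ψ).mp h)) (not_finite_iff_infinite.mpr inferInstance)
  · have : g ∈ ψ.ker := by
      rw [h]
      exact Subgroup.mem_top g
    exact this

/-- line-like orbits are fixed points -/
theorem fixes_of_linelike {G X : Type*} [Group G] [Group.IsFinitelyPresented G] [MulAction G X]
    (hG : ∀ g : G, InFiniteResidual g) (x : X) (pos : X → ℤ)
    (hinj : Set.InjOn pos (MulAction.orbit G x))
    (hb : ∀ g : G, ∃ C : ℤ, ∀ y ∈ MulAction.orbit G x, |pos (g • y) - pos y| ≤ C) (g : G) :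
    g • x = x := by
  let ι : MulAction.orbit G x ↪ ℤ := ⟨fun y => pos y, fun a b h => Subtype.ext (hinj a.2 b.2 h)⟩
  let ρ : G →* Equiv.Perm ℤ :=
    (Equiv.Perm.viaEmbeddingHom ι).comp (MulAction.toPermHom G (MulAction.orbit G x))
  have hρ : ∀ g, BoundedDisp (ρ g) := by
    intro g
    obtain ⟨C, hC⟩ := hb g
    refine ⟨|C|, fun m => ?_⟩
    by_cases hm : m ∈ Set.range ι
    · obtain ⟨y, rfl⟩ := hm
      have : ρ g (ι y) = ι (g • y) := Equiv.Perm.viaEmbedding_apply _ ι y
      rw [this]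
      exact le_trans (hC y y.2) (le_abs_self _)
    · have : ρ g m = m := Equiv.Perm.viaEmbedding_apply_of_notMem _ ι m hm
      rw [this]
      simp
  have h1 := trivial_of_no_finite_quotient hG ρ hρ g
  let x0 : MulAction.orbit G x := ⟨x, MulAction.mem_orbit_self x⟩
  have h2 : ρ g (ι x0) = ι (g • x0) := Equiv.Perm.viaEmbedding_apply _ ι x0
  rw [h1, Equiv.Perm.one_apply] at h2
  have h3 := ι.injective h2
  exact (congrArg Subtype.val h3).symm

lemma finite_orbit_of_not_injective {X : Type*} (φ : Equiv.Perm X) (x : X)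
    (h : ¬ Injective (fun k : ℤ => (φ ^ k) x)) : {y | ∃ k : ℤ, y = (φ ^ k) x}.Finite := by
  unfold Injective at h
  push Not at h
  obtain ⟨a, b, hab, hne⟩ := h
  have hab' : (φ ^ a) x = (φ ^ b) x := hab
  have hp0 : a - b ≠ 0 := sub_ne_zero.mpr hne
  have hp : (φ ^ (a - b)) x = x := by
    rw [sub_eq_neg_add, zpow_add, Equiv.Perm.mul_apply, hab', ← Equiv.Perm.mul_apply, ← zpow_add]
    simp
  have hq : ∀ q : ℤ, (φ ^ ((a - b) * q)) x = x := by
    intro q
    rw [zpow_mul]
    exact Equiv.Perm.zpow_apply_eq_self_of_apply_eq_self hp q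
  apply ((Set.finite_Ico (0 : ℤ) |a - b|).image (fun k : ℤ => (φ ^ k) x)).subset
  rintro y ⟨k, rfl⟩
  refine ⟨k % (a - b), ⟨Int.emod_nonneg _ hp0, Int.emod_lt_abs _ hp0⟩, ?_⟩
  have e : k = k % (a - b) + (a - b) * (k / (a - b)) := (Int.emod_add_mul_ediv k (a - b)).symm
  conv_rhs => rw [e, zpow_add, Equiv.Perm.mul_apply, hq]

/-- A finitely presented group without nontrivial finite quotients cannot act nontrivially inside
the bounded full group of a single permutation. -/
theorem trivial_of_bounded_cocycle {G X : Type*} [Group G] [Group.IsFinitelyPresented G]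
    (hG : ∀ g : G, InFiniteResidual g) (φ : Equiv.Perm X) (ι : G →* Equiv.Perm X)
    (hfull : ∀ g, ∃ L : ℤ, ∀ x, ∃ k : ℤ, |k| ≤ L ∧ ι g x = (φ ^ k) x) (g : G) : ι g = 1 := by
  classical
  ext x
  let _ : MulAction G X := MulAction.compHom X ι
  have hsmul : ∀ (h : G) (y : X), h • y = ι h y := fun h y => rfl
  have horb : ∀ y ∈ MulAction.orbit G x, ∃ k : ℤ, y = (φ ^ k) x := by
    rintro y ⟨h, rfl⟩
    obtain ⟨L, hL⟩ := hfull h
    obtain ⟨k, -, hk⟩ := hL x
    exact ⟨k, hk⟩
  have hmem : ∀ (h : G) (y : X), y ∈ MulAction.orbit G x → h • y ∈ MulAction.orbit G x := by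
    rintro h y ⟨h', rfl⟩
    exact ⟨h * h', mul_smul h h' x⟩
  rw [Equiv.Perm.one_apply, ← hsmul]
  by_cases hinj : Injective (fun k : ℤ => (φ ^ k) x)
  · let pos : X → ℤ := fun y => if h : ∃ k : ℤ, y = (φ ^ k) x then h.choose else 0
    have hpos : ∀ k : ℤ, pos ((φ ^ k) x) = k := by
      intro k
      have h : ∃ k' : ℤ, (φ ^ k) x = (φ ^ k') x := ⟨k, rfl⟩
      simp only [pos, dif_pos h]
      exact (hinj h.choose_spec).symm
    refine fixes_of_linelike hG x pos ?_ ?_ g
    · intro a ha b hb hab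
      obtain ⟨k, rfl⟩ := horb a ha
      obtain ⟨l, rfl⟩ := horb b hb
      rw [hpos, hpos] at hab
      rw [hab]
    · intro h
      obtain ⟨L, hL⟩ := hfull h
      refine ⟨L, fun y hy => ?_⟩
      obtain ⟨k, rfl⟩ := horb y hy
      obtain ⟨j, hj, hjk⟩ := hL ((φ ^ k) x)
      rw [hsmul, hjk, ← Equiv.Perm.mul_apply, ← zpow_add, hpos, hpos]
      simpa using hj
  · have hfin : (MulAction.orbit G x).Finite :=
      (finite_orbit_of_not_injective φ x hinj).subset horb
    obtain ⟨f, hf⟩ := Set.countable_iff_exists_injOn.mp hfin.countable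
    obtain ⟨M, hM⟩ := (hfin.image (fun y => (f y : ℤ))).bddAbove
    refine fixes_of_linelike hG x (fun y => (f y : ℤ)) ?_ ?_ g
    · intro a ha b hb hab
      have hab' : (f a : ℤ) = (f b : ℤ) := hab
      exact hf ha hb (by exact_mod_cast hab')
    · intro h
      refine ⟨M, fun y hy => ?_⟩
      have h1 : (f (h • y) : ℤ) ≤ M := hM ⟨h • y, hmem h y hy, rfl⟩
      have h2 : (f y : ℤ) ≤ M := hM ⟨y, hy, rfl⟩
      have h3 : (0 : ℤ) ≤ f (h • y) := Int.natCast_nonneg _
      have h4 : (0 : ℤ) ≤ f y := Int.natCast_nonneg _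
      rw [abs_le]
      constructor <;> linarith

/-- `g` belongs to the topological full group of the homeomorphism `φ`: locally, `g` is a power of
`φ` (on a compact space this is the same as a finite clopen partition on whose pieces `g` is a fixed
power of `φ`). -/
def InFullGroup {X : Type*} [TopologicalSpace X] (φ g : X ≃ₜ X) : Prop :=
  ∃ n : X → ℤ, IsLocallyConstant n ∧ ∀ x, g x = (φ ^ n x) x

/-- forget continuity -/
def toPerm (X : Type*) [TopologicalSpace X] : (X ≃ₜ X) →* Equiv.Perm X :=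
  MonoidHom.mk' (fun g => g.toEquiv) (fun _ _ => rfl)

theorem trivial_of_full_group {G X : Type*} [Group G] [Group.IsFinitelyPresented G]
    [TopologicalSpace X] [CompactSpace X]
    (hG : ∀ g : G, InFiniteResidual g) (φ : X ≃ₜ X) (ι : G →* (X ≃ₜ X))
    (hfull : ∀ g, InFullGroup φ (ι g)) (g : G) : ι g = 1 := by
  have key := trivial_of_bounded_cocycle hG (toPerm X φ) ((toPerm X).comp ι) ?_ g
  · ext x
    exact congrArg (fun e : Equiv.Perm X => e x) key
  · intro h
    obtain ⟨n, hn, hn2⟩ := hfull h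
    obtain ⟨M, hM⟩ := (hn.range_finite.image (fun k : ℤ => |k|)).bddAbove
    refine ⟨M, fun x => ⟨n x, hM ⟨n x, ⟨x, rfl⟩, rfl⟩, ?_⟩⟩
    rw [← map_zpow]
    exact hn2 x

lemma finite_of_trivial {G H : Type*} [Group G] [Group H] (ι : G →* H) (hι : Injective ι)
    (h : Infinite G → ∀ g, ι g = 1) : Finite G := by
  by_contra hinf
  have hI : Infinite G := not_finite_iff_infinite.mp hinf
  have : Subsingleton G := ⟨fun a b => hι (by rw [h hI a, h hI b])⟩
  exact hinf inferInstance

universe u v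

/-- **Main result.**
(1) In a finitely presented group of bounded-displacement permutations of `ℤ`, every element that
dies in all finite quotients is a finitary permutation.
(2) A finitely presented group without nontrivial finite quotients has only the trivial action on
`ℤ` by bounded-displacement permutations.
(3) Every finitely presented simple subgroup of the wobbling group `W(ℤ)` is finite.
(4) A finitely presented simple group acting faithfully on a set all of whose orbits can be laid out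
on `ℤ` with bounded displacement is finite.
(5) For every homeomorphism `φ` of every compact space, every finitely presented simple subgroup of
the topological full group of `φ` is finite. -/
theorem result :
    (∀ (G : Type u) [Group G] [Group.IsFinitelyPresented G] (ρ : G →* Equiv.Perm ℤ),
      (∀ g, BoundedDisp (ρ g)) → ∀ g, InFiniteResidual g → {m : ℤ | ρ g m ≠ m}.Finite) ∧
    (∀ (G : Type u) [Group G] [Group.IsFinitelyPresented G] (ρ : G →* Equiv.Perm ℤ),
      (∀ g, BoundedDisp (ρ g)) → (∀ g : G, InFiniteResidual g) → ∀ g, ρ g = 1) ∧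
    (∀ (G : Type u) [Group G] [Group.IsFinitelyPresented G] [IsSimpleGroup G]
      (ρ : G →* Equiv.Perm ℤ), Injective ρ → (∀ g, BoundedDisp (ρ g)) → Finite G) ∧
    (∀ (G : Type u) (X : Type v) [Group G] [Group.IsFinitelyPresented G] [IsSimpleGroup G]
      [MulAction G X] [FaithfulSMul G X] (pos : X → ℤ),
      (∀ x : X, Set.InjOn pos (MulAction.orbit G x)) →
      (∀ (x : X) (g : G), ∃ C : ℤ, ∀ y ∈ MulAction.orbit G x, |pos (g • y) - pos y| ≤ C) →
      Finite G) ∧
    (∀ (G : Type u) (X : Type v) [Group G] [Group.IsFinitelyPresented G] [IsSimpleGroup G]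
      [TopologicalSpace X] [CompactSpace X] (φ : X ≃ₜ X) (ι : G →* (X ≃ₜ X)),
      Injective ι → (∀ g, InFullGroup φ (ι g)) → Finite G) := by
  refine ⟨?_, ?_, ?_, ?_, ?_⟩
  · intro G _ _ ρ hρ g hg
    exact finitary_of_residual ρ hρ g hg
  · intro G _ _ ρ hρ hG g
    exact trivial_of_no_finite_quotient hG ρ hρ g
  · intro G _ _ _ ρ hinj hρ
    exact finite_of_trivial ρ hinj
      (fun _ g => trivial_of_no_finite_quotient (fun g => residual_of_simple g) ρ hρ g)
  · intro G X _ _ _ _ _ pos hinj hb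
    refine finite_of_trivial (MulAction.toPermHom G X) MulAction.toPerm_injective (fun _ g => ?_)
    ext x
    exact fixes_of_linelike (fun g => residual_of_simple g) x pos (hinj x) (hb x) g
  · intro G X _ _ _ _ _ φ ι hinj hfull
    exact finite_of_trivial ι hinj
      (fun _ g => trivial_of_full_group (fun g => residual_of_simple g) φ ι hfull g)

end Vale.Agent.Results.P196.WobblingNoGo
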