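import Vale.Agent.Results.P196.HierarchyNoGo
import Vale.Agent.Results.P196.WobblingNoGo

/-!
# P196: the two no-go theorems for infinite finitely presented simple groups, in one statement

The conjunction of `HierarchyNoGo.result` (closure hierarchy) and `WobblingNoGo.result`
(wobbling group of `ℤ` and topological full groups of arbitrary homeomorphisms).
-/

namespace Vale.Agent.Results.P196.A_Combined

open Function

universe u v

/-- **(A)** No member of the closure class `HierarchyNoGo.Reachable` is, or contains, an infinite
finitely presented simple group.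
**(B)** (1)-(5) of `WobblingNoGo.result`: finitely presented groups of bounded-displacement
permutations of `ℤ`; finitely presented simple subgroups of `W(ℤ)`, of groups acting with line-like
orbits and of topological full groups of arbitrary homeomorphisms of compact spaces are finite. -/
theorem result :
    ((∀ (G : Type u) [Group G], HierarchyNoGo.Reachable G → IsSimpleGroup G →
      Group.IsFinitelyPresented G → Finite G) ∧
    (∀ (G : Type u) [Group G], HierarchyNoGo.Reachable G → ∀ K : Subgroup G, IsSimpleGroup K →
      Group.IsFinitelyPresented K → Finite K)) ∧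
    ((∀ (G : Type u) [Group G] [Group.IsFinitelyPresented G] (ρ : G →* Equiv.Perm ℤ),
      (∀ g, WobblingNoGo.BoundedDisp (ρ g)) → ∀ g, WobblingNoGo.InFiniteResidual g →
        {m : ℤ | ρ g m ≠ m}.Finite) ∧
    (∀ (G : Type u) [Group G] [Group.IsFinitelyPresented G] (ρ : G →* Equiv.Perm ℤ),
      (∀ g, WobblingNoGo.BoundedDisp (ρ g)) → (∀ g : G, WobblingNoGo.InFiniteResidual g) →
        ∀ g, ρ g = 1) ∧
    (∀ (G : Type u) [Group G] [Group.IsFinitelyPresented G] [IsSimpleGroup G]
      (ρ : G →* Equiv.Perm ℤ), Injective ρ → (∀ g, WobblingNoGo.BoundedDisp (ρ g)) → Finite G) ∧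
    (∀ (G : Type u) (X : Type v) [Group G] [Group.IsFinitelyPresented G] [IsSimpleGroup G]
      [MulAction G X] [FaithfulSMul G X] (pos : X → ℤ),
      (∀ x : X, Set.InjOn pos (MulAction.orbit G x)) →
      (∀ (x : X) (g : G), ∃ C : ℤ, ∀ y ∈ MulAction.orbit G x, |pos (g • y) - pos y| ≤ C) →
      Finite G) ∧
    (∀ (G : Type u) (X : Type v) [Group G] [Group.IsFinitelyPresented G] [IsSimpleGroup G]
      [TopologicalSpace X] [CompactSpace X] (φ : X ≃ₜ X) (ι : G →* (X ≃ₜ X)),
      Injective ι → (∀ g, WobblingNoGo.InFullGroup φ (ι g)) → Finite G)) :=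
  ⟨HierarchyNoGo.result.{u}, WobblingNoGo.result.{u, v}⟩

end Vale.Agent.Results.P196.A_Combined
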