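import Vale.Agent.Results.P196.HierarchyNoGo
import Vale.Agent.Results.P196.WobblingNoGo

/-!
# P196: one closure hierarchy over finite groups, abelian groups, the wobbling group of `ℤ`,
groups with line-like orbits and topological full groups; it contains no infinite finitely
presented simple group
-/

namespace Vale.Agent.Results.P196.A_UnifiedNoGo

open Function
open Vale.Agent.Results.P196.HierarchyNoGo
open Vale.Agent.Results.P196.WobblingNoGo (BoundedDisp InFullGroup)

universe u

/-- The smallest class of groups that contains the finite groups, the abelian groups, the groups of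
bounded-displacement permutations of `ℤ`, the groups acting faithfully with line-like orbits and the
subgroups of topological full groups of homeomorphisms of compact spaces, and is closed under
subgroups (and isomorphism), extensions, directed unions, residual approximation and local
embeddability. -/
inductive Reach : (G : Type u) → [Group G] → Prop
  | finite (G : Type u) [Group G] (h : Finite G) : Reach G
  | abelian (G : Type u) [Group G] (h : ∀ a b : G, a * b = b * a) : Reach G
  | wobbling (G : Type u) [Group G] (ρ : G →* Equiv.Perm ℤ) (hρ : Injective ρ)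
      (hb : ∀ g, BoundedDisp (ρ g)) : Reach G
  | lineLike (G X : Type u) [Group G] [MulAction G X] [FaithfulSMul G X] (pos : X → ℤ)
      (hinj : ∀ x : X, Set.InjOn pos (MulAction.orbit G x))
      (hb : ∀ (x : X) (g : G), ∃ C : ℤ, ∀ y ∈ MulAction.orbit G x, |pos (g • y) - pos y| ≤ C) :
      Reach G
  | fullGroup (G X : Type u) [Group G] [TopologicalSpace X] [CompactSpace X] (φ : X ≃ₜ X)
      (ι : G →* (X ≃ₜ X)) (hι : Injective ι) (hfull : ∀ g, InFullGroup φ (ι g)) : Reach G
  | subgroup (G H : Type u) [Group G] [Group H] (f : G →* H) (hf : Function.Injective f)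
      (hH : Reach H) : Reach G
  | extension (G Q : Type u) [Group G] [Group Q] (π : G →* Q)
      (hK : Reach π.ker) (hQ : Reach Q) : Reach G
  | directedUnion (G : Type u) [Group G] (ι : Type u) (K : ι → Subgroup G)
      (hdir : Directed (· ≤ ·) K) (hcov : ∀ g : G, ∃ i, g ∈ K i)
      (hK : ∀ i, Reach (K i)) : Reach G
  | residually (G : Type u) [Group G] (H : G → Type u) [∀ g, Group (H g)]
      (φ : ∀ g, G →* H g) (hφ : ∀ g, g ≠ 1 → φ g g ≠ 1)
      (hH : ∀ g, Reach (H g)) : Reach G
  | locallyEmbeddable (G : Type u) [Group G] (H : Finset G → Type u) [∀ E, Group (H E)]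
      (ρ : ∀ E, G → H E) (hinj : ∀ E, Set.InjOn (ρ E) E) (hmul : ∀ E, MulOn E (ρ E))
      (hH : ∀ E, Reach (H E)) : Reach G

theorem noInf_of_reach (G : Type u) [Group G] (hG : Reach G) : NoInfFPSimple G := by
  classical
  induction hG with
  | finite G h =>
    intro S _ _ _ f hf
    exact Finite.of_injective f hf
  | abelian G h =>
    intro S _ hS _ f hf
    have hc : ∀ a b : S, a * b = b * a := fun a b => hf (by rw [map_mul, map_mul, h])
    let _ : CommGroup S := { (inferInstance : Group S) with mul_comm := hc }
    have hp : (Nat.card S).Prime := IsSimpleGroup.prime_card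
    exact Nat.finite_of_card_ne_zero hp.ne_zero
  | wobbling G ρ hρ hb =>
    intro S _ hS hfp f hf
    have := hS
    have := hfp
    exact (WobblingNoGo.result.{u, u}).2.2.1 S (ρ.comp f) (hρ.comp hf) (fun s => hb (f s))
  | lineLike G X pos hinj hb =>
    intro S _ hS hfp f hf
    have := hS
    have := hfp
    let _ : MulAction S X := MulAction.compHom X f
    have : FaithfulSMul S X :=
      ⟨fun {a b} h => hf (FaithfulSMul.eq_of_smul_eq_smul (α := X) (fun x => h x))⟩
    have horb : ∀ x : X, MulAction.orbit S x ⊆ MulAction.orbit G x := by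
      rintro x _ ⟨s, rfl⟩
      exact ⟨f s, rfl⟩
    refine (WobblingNoGo.result.{u, u}).2.2.2.1 S X pos (fun x => (hinj x).mono (horb x)) ?_
    intro x s
    obtain ⟨C, hC⟩ := hb x (f s)
    exact ⟨C, fun y hy => hC y (horb x hy)⟩
  | fullGroup G X φ ι hι hfull =>
    intro S _ hS hfp f hf
    have := hS
    have := hfp
    exact (WobblingNoGo.result.{u, u}).2.2.2.2 S X φ (ι.comp f) (hι.comp hf)
      (fun s => hfull (f s))
  | subgroup G H g hg _ ih =>
    intro S _ hS hfp f hf
    exact ih S hS hfp (g.comp f) (hg.comp hf)
  | extension G Q π _ _ ihK ihQ =>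
    intro S _ hS hfp f hf
    by_cases h : ∃ s : S, π (f s) ≠ 1
    · obtain ⟨s, hs⟩ := h
      exact ihQ S hS hfp (π.comp f) (injective_of_ne_one hS (π.comp f) s hs)
    · push_neg at h
      refine ihK S hS hfp (f.codRestrict π.ker (fun s => h s)) ?_
      intro a b hab
      exact hf (congrArg Subtype.val hab)
  | directedUnion G ι K hdir hcov _ ih =>
    intro S _ hS hfp f hf
    obtain ⟨n, φ, hφ, -⟩ := hfp.out
    have : Nonempty ι := ⟨(hcov 1).choose⟩
    choose idx hidx using fun j : Fin n => hcov (f (φ (FreeGroup.of j)))
    obtain ⟨z, hz⟩ := hdir.finset_le (Finset.univ.image idx)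
    have hgen : ∀ w : FreeGroup (Fin n), f (φ w) ∈ K z := by
      intro w
      induction w using FreeGroup.induction_on with
      | C1 => simp
      | of j => exact hz (idx j) (by simp) (hidx j)
      | inv_of j hj => simpa using (K z).inv_mem hj
      | mul a b ha hb => simpa using (K z).mul_mem ha hb
    have hmem : ∀ s : S, f s ∈ K z := by
      intro s
      obtain ⟨w, rfl⟩ := hφ s
      exact hgen w
    refine ih z S hS hfp (f.codRestrict (K z) hmem) ?_
    intro a b hab
    exact hf (congrArg Subtype.val hab)
  | residually G H φ hφ _ ih =>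
    intro S _ hS hfp f hf
    obtain ⟨s, hs⟩ := exists_ne (1 : S)
    have hfs : f s ≠ 1 := fun h => hs (hf (by rw [h, map_one]))
    exact ih (f s) S hS hfp ((φ (f s)).comp f)
      (injective_of_ne_one hS ((φ (f s)).comp f) s (hφ (f s) hfs))
  | locallyEmbeddable G H ρ hinj hmul _ ih =>
    intro S _ hS hfp f hf
    obtain ⟨n, φ, hφ, R, hRfin, hR⟩ := hfp.out
    obtain ⟨s, hs⟩ := exists_ne (1 : S)
    obtain ⟨t, rfl⟩ := hφ s
    set gen : Fin n → G := fun j => f (φ (FreeGroup.of j)) with hgen
    have hlift : ∀ w : FreeGroup (Fin n), FreeGroup.lift gen w = f (φ w) := by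
      intro w
      have : FreeGroup.lift gen = f.comp φ := by
        ext j
        simp [hgen]
      rw [this]; rfl
    choose E₀ hE₀ using exists_finset_elt gen
    set E : Finset G := (hRfin.toFinset.biUnion E₀) ∪ E₀ t ∪ {1, f (φ t)} with hE
    have hρ := hmul E
    set ψ : FreeGroup (Fin n) →* H E := FreeGroup.lift (ρ E ∘ gen) with hψ
    have h1E : (1 : G) ∈ E := by simp [hE]
    have htE : f (φ t) ∈ E := by simp [hE]
    have hone : ρ E 1 = 1 := mulOn_one hρ h1E
    have hker : φ.ker ≤ ψ.ker := by
      rw [← hR]
      refine Subgroup.normalClosure_le_normal ?_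
      intro r hr
      have hsub : E₀ r ⊆ E := by
        intro x hx
        rw [hE]
        refine Finset.mem_union_left _ (Finset.mem_union_left _ ?_)
        exact Finset.mem_biUnion.2 ⟨r, hRfin.mem_toFinset.2 hr, hx⟩
      have h := hE₀ r (H E) (ρ E) E hsub hρ
      have hr1 : φ r = 1 := by
        have : r ∈ φ.ker := by rw [← hR]; exact Subgroup.subset_normalClosure hr
        exact this
      rw [hlift, hr1, map_one, hone] at h
      exact h.symm
    have hψt : ψ t ≠ 1 := by
      have hsub : E₀ t ⊆ E := by
        intro x hx
        rw [hE]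
        exact Finset.mem_union_left _ (Finset.mem_union_right _ hx)
      have h := hE₀ t (H E) (ρ E) E hsub hρ
      rw [hlift] at h
      rw [hψ, ← h, ← hone]
      intro hcontra
      have := hinj E htE h1E hcontra
      exact hs (hf (by rw [this, map_one]))
    let ψbar : S →* H E := φ.liftOfSurjective hφ ⟨ψ, hker⟩
    have hbar : ψbar (φ t) = ψ t := by
      simp [ψbar, MonoidHom.liftOfRightInverse_comp_apply]
    exact ih E S hS hfp ψbar (injective_of_ne_one hS ψbar (φ t) (by rw [hbar]; exact hψt))

/-- No infinite finitely presented simple group belongs to the class `Reach`; more generally no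
member of the class has an infinite finitely presented simple subgroup. -/
theorem result :
    (∀ (G : Type u) [Group G], Reach G → IsSimpleGroup G → Group.IsFinitelyPresented G →
      Finite G) ∧
    (∀ (G : Type u) [Group G], Reach G → ∀ K : Subgroup G, IsSimpleGroup K →
      Group.IsFinitelyPresented K → Finite K) := by
  refine ⟨fun G _ hG hS hfp => ?_, fun G _ hG K hS hfp => ?_⟩
  · exact noInf_of_reach G hG G hS hfp (MonoidHom.id G) Function.injective_id
  · exact noInf_of_reach G hG K hS hfp K.subtype K.subtype_injective

end Vale.Agent.Results.P196.A_UnifiedNoGo
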