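import Mathlib

/-!
# P196: a closure hierarchy that contains no infinite finitely presented simple group
-/

namespace Vale.Agent.Results.P196.HierarchyNoGo

universe u

/-- `ρ : G → H` preserves every product `g * h` with `g, h, g * h ∈ E`. -/
def MulOn {G H : Type u} [Group G] [Group H] (E : Finset G) (ρ : G → H) : Prop :=
  ∀ g ∈ E, ∀ h ∈ E, g * h ∈ E → ρ (g * h) = ρ g * ρ h

/-- The smallest class of groups that contains the finite groups and the abelian groups and is
closed under subgroups (and isomorphism), extensions, directed unions, residual approximation and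
local embeddability. -/
inductive Reachable : (G : Type u) → [Group G] → Prop
  | finite (G : Type u) [Group G] (h : Finite G) : Reachable G
  | abelian (G : Type u) [Group G] (h : ∀ a b : G, a * b = b * a) : Reachable G
  | subgroup (G H : Type u) [Group G] [Group H] (f : G →* H) (hf : Function.Injective f)
      (hH : Reachable H) : Reachable G
  | extension (G Q : Type u) [Group G] [Group Q] (π : G →* Q)
      (hK : Reachable π.ker) (hQ : Reachable Q) : Reachable G
  | directedUnion (G : Type u) [Group G] (ι : Type u) (K : ι → Subgroup G)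
      (hdir : Directed (· ≤ ·) K) (hcov : ∀ g : G, ∃ i, g ∈ K i)
      (hK : ∀ i, Reachable (K i)) : Reachable G
  | residually (G : Type u) [Group G] (H : G → Type u) [∀ g, Group (H g)]
      (φ : ∀ g, G →* H g) (hφ : ∀ g, g ≠ 1 → φ g g ≠ 1)
      (hH : ∀ g, Reachable (H g)) : Reachable G
  | locallyEmbeddable (G : Type u) [Group G] (H : Finset G → Type u) [∀ E, Group (H E)]
      (ρ : ∀ E, G → H E) (hinj : ∀ E, Set.InjOn (ρ E) E) (hmul : ∀ E, MulOn E (ρ E))
      (hH : ∀ E, Reachable (H E)) : Reachable G

/-- Every finitely presented simple group that embeds in `G` is finite. -/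
def NoInfFPSimple (G : Type u) [Group G] : Prop :=
  ∀ (S : Type u) [Group S], IsSimpleGroup S → Group.IsFinitelyPresented S →
    ∀ f : S →* G, Function.Injective f → Finite S

lemma injective_of_ne_one {S H : Type u} [Group S] [Group H] (hS : IsSimpleGroup S)
    (f : S →* H) (s : S) (hs : f s ≠ 1) : Function.Injective f := by
  rcases hS.eq_bot_or_eq_top_of_normal f.ker inferInstance with h | h
  · exact (MonoidHom.ker_eq_bot_iff f).1 h
  · exact absurd (by rw [← MonoidHom.mem_ker, h]; trivial) hs

lemma mulOn_mono {G H : Type u} [Group G] [Group H] {E E' : Finset G} {ρ : G → H}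
    (h : E' ⊆ E) (hρ : MulOn E ρ) : MulOn E' ρ :=
  fun g hg k hk hgk => hρ g (h hg) k (h hk) (h hgk)

lemma mulOn_one {G H : Type u} [Group G] [Group H] {E : Finset G} {ρ : G → H}
    (hρ : MulOn E ρ) (h1 : (1 : G) ∈ E) : ρ 1 = 1 := by
  have := hρ 1 h1 1 h1 (by simpa using h1)
  rw [mul_one] at this
  exact (mul_eq_left (a := ρ 1) (b := ρ 1)).1 this.symm

lemma mulOn_inv {G H : Type u} [Group G] [Group H] {E : Finset G} {ρ : G → H}
    (hρ : MulOn E ρ) (h1 : (1 : G) ∈ E) {g : G} (hg : g ∈ E) (hg' : g⁻¹ ∈ E) :
    ρ g⁻¹ = (ρ g)⁻¹ := by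
  have := hρ g hg g⁻¹ hg' (by simpa using h1)
  rw [mul_inv_cancel, mulOn_one hρ h1] at this
  exact (inv_eq_of_mul_eq_one_right this.symm).symm

/-- Evaluating a word through a map that is multiplicative on a large enough finite set. -/
lemma exists_finset_word {G : Type u} [Group G] {n : ℕ} (s : Fin n → G)
    (L : List (Fin n × Bool)) :
    ∃ E₀ : Finset G, ∀ (H : Type u) [Group H] (ρ : G → H) (E : Finset G), E₀ ⊆ E → MulOn E ρ →
      ρ (FreeGroup.lift s (FreeGroup.mk L)) = FreeGroup.lift (ρ ∘ s) (FreeGroup.mk L) := by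
  classical
  induction L with
  | nil =>
    refine ⟨{1}, fun H _ ρ E hE hρ => ?_⟩
    have h1 : (1 : G) ∈ E := hE (by simp)
    simpa [FreeGroup.lift_mk] using mulOn_one hρ h1
  | cons p L ih =>
    obtain ⟨E₀, hE₀⟩ := ih
    obtain ⟨i, b⟩ := p
    refine ⟨E₀ ∪ {1, s i, (s i)⁻¹, FreeGroup.lift s (FreeGroup.mk L),
      s i * FreeGroup.lift s (FreeGroup.mk L), (s i)⁻¹ * FreeGroup.lift s (FreeGroup.mk L)},
      fun H _ ρ E hE hρ => ?_⟩
    have hsub : E₀ ⊆ E := fun x hx => hE (Finset.mem_union_left _ hx)
    have ih' := hE₀ H ρ E hsub hρ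
    have h1 : (1 : G) ∈ E := hE (by simp)
    have h2 : s i ∈ E := hE (by simp)
    have h3 : (s i)⁻¹ ∈ E := hE (by simp)
    have h4 : FreeGroup.lift s (FreeGroup.mk L) ∈ E := hE (by simp)
    have h5 : s i * FreeGroup.lift s (FreeGroup.mk L) ∈ E := hE (by simp)
    have h6 : (s i)⁻¹ * FreeGroup.lift s (FreeGroup.mk L) ∈ E := hE (by simp)
    rw [FreeGroup.lift_mk] at ih' h4 h5 h6 ⊢
    rw [FreeGroup.lift_mk] at ih' ⊢
    cases b with
    | true =>
      simp only [List.map_cons, List.prod_cons, cond_true, Function.comp_apply]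
      rw [hρ _ h2 _ h4 h5, ih']
      rfl
    | false =>
      simp only [List.map_cons, List.prod_cons, cond_false, Function.comp_apply]
      rw [hρ _ h3 _ h4 h6, ih', mulOn_inv hρ h1 h2 h3]
      rfl

lemma exists_finset_elt {G : Type u} [Group G] {n : ℕ} (s : Fin n → G)
    (w : FreeGroup (Fin n)) :
    ∃ E₀ : Finset G, ∀ (H : Type u) [Group H] (ρ : G → H) (E : Finset G), E₀ ⊆ E → MulOn E ρ →
      ρ (FreeGroup.lift s w) = FreeGroup.lift (ρ ∘ s) w := by
  obtain ⟨L, rfl⟩ := Quot.exists_rep w
  exact exists_finset_word s L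

theorem noInf_of_reachable (G : Type u) [Group G] (hG : Reachable G) : NoInfFPSimple G := by
  classical
  induction hG with
  | finite G h =>
    intro S _ _ _ f hf
    exact Finite.of_injective f hf
  | abelian G h =>
    intro S _ hS _ f hf
    have hc : ∀ a b : S, a * b = b * a := fun a b => hf (by rw [map_mul, map_mul, h])
    let _ : CommGroup S := { (inferInstance : Group S) with mul_comm := hc }
    have hp : (Nat.card S).Prime := IsSimpleGroup.prime_card
    exact Nat.finite_of_card_ne_zero hp.ne_zero
  | subgroup G H g hg _ ih =>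
    intro S _ hS hfp f hf
    exact ih S hS hfp (g.comp f) (hg.comp hf)
  | extension G Q π _ _ ihK ihQ =>
    intro S _ hS hfp f hf
    by_cases h : ∃ s : S, π (f s) ≠ 1
    · obtain ⟨s, hs⟩ := h
      exact ihQ S hS hfp (π.comp f) (injective_of_ne_one hS (π.comp f) s hs)
    · push_neg at h
      refine ihK S hS hfp (f.codRestrict π.ker (fun s => h s)) ?_
      intro a b hab
      exact hf (congrArg Subtype.val hab)
  | directedUnion G ι K hdir hcov _ ih =>
    intro S _ hS hfp f hf
    obtain ⟨n, φ, hφ, -⟩ := hfp.out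
    have : Nonempty ι := ⟨(hcov 1).choose⟩
    choose idx hidx using fun j : Fin n => hcov (f (φ (FreeGroup.of j)))
    obtain ⟨z, hz⟩ := hdir.finset_le (Finset.univ.image idx)
    have hgen : ∀ w : FreeGroup (Fin n), f (φ w) ∈ K z := by
      intro w
      induction w using FreeGroup.induction_on with
      | C1 => simp
      | of j => exact hz (idx j) (by simp) (hidx j)
      | inv_of j hj => simpa using (K z).inv_mem hj
      | mul a b ha hb => simpa using (K z).mul_mem ha hb
    have hmem : ∀ s : S, f s ∈ K z := by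
      intro s
      obtain ⟨w, rfl⟩ := hφ s
      exact hgen w
    refine ih z S hS hfp (f.codRestrict (K z) hmem) ?_
    intro a b hab
    exact hf (congrArg Subtype.val hab)
  | residually G H φ hφ _ ih =>
    intro S _ hS hfp f hf
    obtain ⟨s, hs⟩ := exists_ne (1 : S)
    have hfs : f s ≠ 1 := fun h => hs (hf (by rw [h, map_one]))
    exact ih (f s) S hS hfp ((φ (f s)).comp f)
      (injective_of_ne_one hS ((φ (f s)).comp f) s (hφ (f s) hfs))
  | locallyEmbeddable G H ρ hinj hmul _ ih =>
    intro S _ hS hfp f hf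
    obtain ⟨n, φ, hφ, R, hRfin, hR⟩ := hfp.out
    obtain ⟨s, hs⟩ := exists_ne (1 : S)
    obtain ⟨t, rfl⟩ := hφ s
    set gen : Fin n → G := fun j => f (φ (FreeGroup.of j)) with hgen
    have hlift : ∀ w : FreeGroup (Fin n), FreeGroup.lift gen w = f (φ w) := by
      intro w
      have : FreeGroup.lift gen = f.comp φ := by
        ext j
        simp [hgen]
      rw [this]; rfl
    choose E₀ hE₀ using exists_finset_elt gen
    set E : Finset G := (hRfin.toFinset.biUnion E₀) ∪ E₀ t ∪ {1, f (φ t)} with hE
    have hρ := hmul E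
    set ψ : FreeGroup (Fin n) →* H E := FreeGroup.lift (ρ E ∘ gen) with hψ
    have h1E : (1 : G) ∈ E := by simp [hE]
    have htE : f (φ t) ∈ E := by simp [hE]
    have hone : ρ E 1 = 1 := mulOn_one hρ h1E
    have hker : φ.ker ≤ ψ.ker := by
      rw [← hR]
      refine Subgroup.normalClosure_le_normal ?_
      intro r hr
      have hsub : E₀ r ⊆ E := by
        intro x hx
        rw [hE]
        refine Finset.mem_union_left _ (Finset.mem_union_left _ ?_)
        exact Finset.mem_biUnion.2 ⟨r, hRfin.mem_toFinset.2 hr, hx⟩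
      have h := hE₀ r (H E) (ρ E) E hsub hρ
      have hr1 : φ r = 1 := by
        have : r ∈ φ.ker := by rw [← hR]; exact Subgroup.subset_normalClosure hr
        exact this
      rw [hlift, hr1, map_one, hone] at h
      exact h.symm
    have hψt : ψ t ≠ 1 := by
      have hsub : E₀ t ⊆ E := by
        intro x hx
        rw [hE]
        exact Finset.mem_union_left _ (Finset.mem_union_right _ hx)
      have h := hE₀ t (H E) (ρ E) E hsub hρ
      rw [hlift] at h
      rw [hψ, ← h, ← hone]
      intro hcontra
      have := hinj E htE h1E hcontra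
      exact hs (hf (by rw [this, map_one]))
    let ψbar : S →* H E := φ.liftOfSurjective hφ ⟨ψ, hker⟩
    have hbar : ψbar (φ t) = ψ t := by
      simp [ψbar, MonoidHom.liftOfRightInverse_comp_apply]
    exact ih E S hS hfp ψbar (injective_of_ne_one hS ψbar (φ t) (by rw [hbar]; exact hψt))

/-- No infinite finitely presented simple group belongs to the class `Reachable`; more generally
no member of the class has an infinite finitely presented simple subgroup. -/
theorem result :
    (∀ (G : Type u) [Group G], Reachable G → IsSimpleGroup G → Group.IsFinitelyPresented G →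
      Finite G) ∧
    (∀ (G : Type u) [Group G], Reachable G → ∀ K : Subgroup G, IsSimpleGroup K →
      Group.IsFinitelyPresented K → Finite K) := by
  refine ⟨fun G _ hG hS hfp => ?_, fun G _ hG K hS hfp => ?_⟩
  · exact noInf_of_reachable G hG G hS hfp (MonoidHom.id G) Function.injective_id
  · exact noInf_of_reachable G hG K hS hfp K.subtype K.subtype_injective

end Vale.Agent.Results.P196.HierarchyNoGo
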